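import Mathlib

/-!
# P267 / GE-LEAF (helper217), part 1: developing maps of a flat structure on a leaf

`DevSys X` is an abstract system of germs of developing maps `Φ : ℂ → X`
(local isometric parametrisations of a flat leaf).  We prove uniqueness, gluing and extension.
-/

open scoped Topology
open Set Filter

namespace Vale.Agent.P267.H217

noncomputable section

/-- A system of germs of developing maps. -/
structure DevSys (X : Type*) [TopologicalSpace X] where
  G : (ℂ → X) → ℂ → Prop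
  congr : ∀ {Φ Ψ : ℂ → X} {t : ℂ}, G Φ t → Φ =ᶠ[𝓝 t] Ψ → G Ψ t
  nhds : ∀ {Φ : ℂ → X} {t : ℂ}, G Φ t → ∀ᶠ s in 𝓝 t, G Φ s
  cont : ∀ {Φ : ℂ → X} {t : ℂ}, G Φ t → ContinuousAt Φ t
  uniq : ∀ {Φ Ψ : ℂ → X} {t s : ℂ}, G Φ t → G Ψ s → Φ t = Ψ s →
    ∃ ζ : ℂ, ‖ζ‖ = 1 ∧ ∀ᶠ h in 𝓝 (0 : ℂ), Φ (t + h) = Ψ (s + ζ * h)
  inj : ∀ {Φ : ℂ → X} {t : ℂ}, G Φ t → ∃ V ∈ 𝓝 t, InjOn Φ V
  rot : ∀ {Φ : ℂ → X} {ζ b t : ℂ}, ‖ζ‖ = 1 → G Φ (ζ * t + b) → G (fun s => Φ (ζ * s + b)) t

variable {X : Type*} [TopologicalSpace X] (D : DevSys X)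

/-- `Φ` is developing on `S`. -/
def DevSys.On (Φ : ℂ → X) (S : Set ℂ) : Prop := ∀ t ∈ S, D.G Φ t

variable {D}

lemma DevSys.On.mono {Φ : ℂ → X} {S S' : Set ℂ} (h : D.On Φ S) (hS : S' ⊆ S) : D.On Φ S' :=
  fun t ht => h t (hS ht)

lemma DevSys.On.congr {Φ Ψ : ℂ → X} {S : Set ℂ} (h : D.On Φ S) (hS : IsOpen S)
    (he : EqOn Φ Ψ S) : D.On Ψ S := by
  intro t ht
  exact D.congr (h t ht) (he.eventuallyEq_of_mem (hS.mem_nhds ht))

/-- Uniqueness of developing maps. -/
theorem DevSys.eqOn_of_germ [T2Space X] {Φ Ψ : ℂ → X} {S : Set ℂ} (hc : IsPreconnected S)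
    (hΦ : D.On Φ S) (hΨ : D.On Ψ S) {t₀ : ℂ} (ht₀ : t₀ ∈ S) (h₀ : Φ =ᶠ[𝓝 t₀] Ψ) :
    EqOn Φ Ψ S := by
  set E : Set ℂ := {t | Φ =ᶠ[𝓝 t] Ψ} with hE
  have hEo : IsOpen E := by
    rw [isOpen_iff_mem_nhds]
    intro t ht
    have := eventually_eventually_nhds.2 (show ∀ᶠ s in 𝓝 t, Φ s = Ψ s from ht)
    exact this
  have key : closure E ∩ S ⊆ E := by
    rintro t ⟨htc, htS⟩
    have hΦt := hΦ t htS
    have hΨt := hΨ t htS
    have heq : Φ t = Ψ t := by
      have h1 : Tendsto (fun s => (Φ s, Ψ s)) (𝓝[E] t) (𝓝 (Φ t, Ψ t)) :=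
        (((D.cont hΦt) : Tendsto _ _ _).prodMk_nhds (D.cont hΨt)).mono_left nhdsWithin_le_nhds
      have hne : (𝓝[E] t).NeBot := mem_closure_iff_nhdsWithin_neBot.1 htc
      have hcl : IsClosed {p : X × X | p.1 = p.2} := isClosed_eq continuous_fst continuous_snd
      have := hcl.mem_of_tendsto h1 (by
        filter_upwards [self_mem_nhdsWithin] with s hs
        exact (show Φ =ᶠ[𝓝 s] Ψ from hs).self_of_nhds)
      exact this
    obtain ⟨ζ, hζ, hev⟩ := D.uniq hΦt hΨt heq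
    obtain ⟨V, hV, hinj⟩ := D.inj hΨt
    -- choose `h` small, nonzero, with `t + h ∈ E`
    have hV' : ∀ᶠ h in 𝓝 (0 : ℂ), t + h ∈ V ∧ t + ζ * h ∈ V := by
      have c1 : Tendsto (fun h : ℂ => t + h) (𝓝 0) (𝓝 t) := by
        have : Continuous fun h : ℂ => t + h := by fun_prop
        simpa using this.tendsto 0
      have c2 : Tendsto (fun h : ℂ => t + ζ * h) (𝓝 0) (𝓝 t) := by
        have : Continuous fun h : ℂ => t + ζ * h := by fun_prop
        simpa using this.tendsto 0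
      exact (c1.eventually hV).and (c2.eventually hV)
    have hζ1 : ζ = 1 := by
      obtain ⟨ε, hε, hball⟩ := Metric.eventually_nhds_iff_ball.1 (hev.and hV')
      obtain ⟨s, hsE, hsd⟩ := Metric.mem_closure_iff.1 htc ε hε
      -- points near `s`, different from `t`
      have hs : ∀ᶠ r in 𝓝 s, Φ r = Ψ r := hsE
      have hs2 : ∀ᶠ r in 𝓝 s, r - t ∈ Metric.ball (0 : ℂ) ε := by
        have : Continuous fun r : ℂ => r - t := by fun_prop
        refine this.continuousAt.eventually (Metric.isOpen_ball.mem_nhds ?_)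
        rw [mem_ball_zero_iff, ← dist_eq_norm, dist_comm]; exact hsd
      obtain ⟨δ, hδ, hb2⟩ := Metric.eventually_nhds_iff_ball.1 (hs.and hs2)
      obtain ⟨r, hr, hrt⟩ : ∃ r ∈ Metric.ball s δ, r ≠ t := by
        by_cases h : s = t
        · refine ⟨s + (δ / 2 : ℝ), ?_, ?_⟩
          · rw [mem_ball_iff_norm, add_sub_cancel_left, Complex.norm_real, Real.norm_of_nonneg
              (by positivity)]
            linarith
          · rw [← h]
            intro h'
            have : ((δ / 2 : ℝ) : ℂ) = 0 := by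
              have := congrArg (fun x => x - s) h'
              simpa using this
            have := Complex.ofReal_eq_zero.1 this
            linarith
        · exact ⟨s, Metric.mem_ball_self hδ, h⟩
      obtain ⟨hr1, hr2⟩ := hb2 r hr
      obtain ⟨hr3, hr4, hr5⟩ := hball _ hr2
      have e1 : t + (r - t) = r := by ring
      rw [e1] at hr3 hr4
      have : r = t + ζ * (r - t) := hinj hr4 hr5 (hr1.symm.trans hr3)
      have h2 : (ζ - 1) * (r - t) = 0 := by linear_combination -this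
      rcases mul_eq_zero.1 h2 with h | h
      · exact sub_eq_zero.1 h
      · exact absurd (sub_eq_zero.1 h) hrt
    subst hζ1
    show ∀ᶠ s in 𝓝 t, Φ s = Ψ s
    have c3 : Tendsto (fun s : ℂ => s - t) (𝓝 t) (𝓝 0) := by
      have : Continuous fun h : ℂ => h - t := by fun_prop
      simpa using this.tendsto t
    filter_upwards [c3.eventually hev] with s hs
    simpa using hs
  have hsub : S ⊆ E := by
    apply hc.subset_of_closure_inter_subset hEo ⟨t₀, ht₀, h₀⟩ key
  intro t ht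
  exact (show Φ =ᶠ[𝓝 t] Ψ from hsub ht).self_of_nhds

/-- Version: they agree on a nonempty open subset. -/
theorem DevSys.eqOn_of_eqOn [T2Space X] {Φ Ψ : ℂ → X} {S U : Set ℂ} (hc : IsPreconnected S)
    (hΦ : D.On Φ S) (hΨ : D.On Ψ S) (hU : IsOpen U) (hne : (S ∩ U).Nonempty)
    (h : EqOn Φ Ψ U) : EqOn Φ Ψ S := by
  obtain ⟨t, ht, htU⟩ := hne
  exact D.eqOn_of_germ hc hΦ hΨ ht (h.eventuallyEq_of_mem (hU.mem_nhds htU))

/-- Gluing of two developing maps. -/
theorem DevSys.glue₂ {Φ Ψ : ℂ → X} {S T : Set ℂ} (hS : IsOpen S) (hT : IsOpen T)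
    (hΦ : D.On Φ S) (hΨ : D.On Ψ T) (h : EqOn Φ Ψ (S ∩ T)) :
    ∃ F : ℂ → X, D.On F (S ∪ T) ∧ EqOn F Φ S ∧ EqOn F Ψ T := by
  classical
  refine ⟨fun t => if t ∈ S then Φ t else Ψ t, ?_, ?_, ?_⟩
  · have e1 : EqOn (fun t => if t ∈ S then Φ t else Ψ t) Φ S := fun t ht => by simp [ht]
    have e2 : EqOn (fun t => if t ∈ S then Φ t else Ψ t) Ψ T := by
      intro t ht
      by_cases hs : t ∈ S
      · simp only [hs, if_true]; exact h ⟨hs, ht⟩
      · simp [hs]
    rintro t (ht | ht)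
    · exact (hΦ.congr hS e1.symm) t ht
    · exact (hΨ.congr hT e2.symm) t ht
  · intro t ht; simp [ht]
  · intro t ht
    by_cases hs : t ∈ S
    · simp only [hs, if_true]; exact h ⟨hs, ht⟩
    · simp [hs]

/-- Gluing of a family. -/
theorem DevSys.glue {ι : Type*} [Nonempty X] {Φ : ι → ℂ → X} {S : ι → Set ℂ}
    (hS : ∀ i, IsOpen (S i))
    (hΦ : ∀ i, D.On (Φ i) (S i)) (h : ∀ i j, EqOn (Φ i) (Φ j) (S i ∩ S j)) :
    ∃ F : ℂ → X, D.On F (⋃ i, S i) ∧ ∀ i, EqOn F (Φ i) (S i) := by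
  classical
  let F : ℂ → X := fun t =>
    if ht : ∃ i, t ∈ S i then Φ ht.choose t else Classical.arbitrary X
  have hF : ∀ i, EqOn F (Φ i) (S i) := by
    intro i t ht
    have hex : ∃ i, t ∈ S i := ⟨i, ht⟩
    show (if ht : ∃ i, t ∈ S i then Φ ht.choose t else Classical.arbitrary X) = Φ i t
    rw [dif_pos hex]
    exact h _ _ ⟨hex.choose_spec, ht⟩
  refine ⟨F, ?_, hF⟩
  intro t ht
  obtain ⟨i, hi⟩ := mem_iUnion.1 ht
  exact ((hΦ i).congr (hS i) (hF i).symm) t hi

/-- local extendability at a point of the closure -/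
def DevSys.ExtAt (D : DevSys X) (Φ : ℂ → X) (S : Set ℂ) (t : ℂ) : Prop :=
  ∃ δ > 0, ∃ Ψ : ℂ → X, D.On Ψ (Metric.ball t δ) ∧ EqOn Ψ Φ (S ∩ Metric.ball t δ)

/-- Extension of a developing map on a convex open set over a compact set of points at which it is
locally extendable. -/
theorem DevSys.extend [T2Space X] {Φ : ℂ → X} {S K : Set ℂ} (hSo : IsOpen S) (hSc : Convex ℝ S)
    (hΦ : D.On Φ S) (hK : IsCompact K) (hKS : K ⊆ closure S) (hne : S.Nonempty)
    (hext : ∀ t ∈ K, D.ExtAt Φ S t) :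
    ∃ δ > 0, ∃ F : ℂ → X, D.On F (S ∪ ⋃ t ∈ K, Metric.ball t δ) ∧ EqOn F Φ S := by
  classical
  have : Nonempty X := ⟨Φ 0⟩
  -- Lebesgue number
  choose! d hd P hP hPe using hext
  obtain ⟨δ, hδ, hL⟩ := lebesgue_number_lemma_of_metric (s := K) (c := fun t : K => Metric.ball (t : ℂ) (d t)) hK
    (fun t => Metric.isOpen_ball)
    (fun t ht => mem_iUnion.2 ⟨⟨t, ht⟩, Metric.mem_ball_self (hd t ht)⟩)
  have hL' : ∀ t ∈ K, ∃ Ψ : ℂ → X, D.On Ψ (Metric.ball t δ) ∧ EqOn Ψ Φ (S ∩ Metric.ball t δ) := by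
    intro t ht
    obtain ⟨i, hi⟩ := hL t ht
    exact ⟨P i, (hP i i.2).mono hi, fun s hs => hPe i i.2 ⟨hs.1, hi hs.2⟩⟩
  choose! Q hQ hQe using hL'
  -- the family indexed by `Option K`
  let T : Option K → Set ℂ := fun o => match o with
    | none => S
    | some t => Metric.ball (t : ℂ) δ
  let H : Option K → ℂ → X := fun o => match o with
    | none => Φ
    | some t => Q t
  have hT : ∀ o, IsOpen (T o) := by
    rintro (_ | t)
    · exact hSo
    · exact Metric.isOpen_ball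
  have hH : ∀ o, D.On (H o) (T o) := by
    rintro (_ | t)
    · exact hΦ
    · exact hQ t t.2
  have hclc : Convex ℝ (closure S) := hSc.closure
  have hHH : ∀ o o', EqOn (H o) (H o') (T o ∩ T o') := by
    rintro (_ | t) (_ | t')
    · exact fun _ _ => rfl
    · intro s hs
      exact (hQe t' t'.2 hs).symm
    · intro s hs
      exact hQe t t.2 ⟨hs.2, hs.1⟩
    · by_cases hne' : (T (some t) ∩ T (some t')).Nonempty
      · -- the midpoint
        obtain ⟨x, hx1, hx2⟩ := hne'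
        have hdist : dist (t : ℂ) t' < 2 * δ := by
          calc dist (t : ℂ) t' ≤ dist (t : ℂ) x + dist x t' := dist_triangle _ _ _
            _ < δ + δ := by
              have h1 : dist x (t : ℂ) < δ := hx1
              have h2 : dist x (t' : ℂ) < δ := hx2
              rw [dist_comm (t : ℂ) x]; linarith
            _ = 2 * δ := by ring
        set m : ℂ := midpoint ℝ (t : ℂ) t' with hm
        have hm1 : m ∈ Metric.ball (t : ℂ) δ := by
          rw [Metric.mem_ball, hm, dist_midpoint_left]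
          simp only [Real.norm_ofNat]
          linarith
        have hm2 : m ∈ Metric.ball (t' : ℂ) δ := by
          rw [Metric.mem_ball, hm, dist_midpoint_right]
          simp only [Real.norm_ofNat]
          linarith
        have hmc : m ∈ closure S := by
          have := hclc.midpoint_mem (hKS t.2) (hKS t'.2)
          exact this
        have hopen : IsOpen (Metric.ball (t : ℂ) δ ∩ Metric.ball (t' : ℂ) δ) :=
          Metric.isOpen_ball.inter Metric.isOpen_ball
        obtain ⟨y, hy1, hy2⟩ := mem_closure_iff.1 hmc _ hopen ⟨hm1, hm2⟩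
        have hconv : Convex ℝ (Metric.ball (t : ℂ) δ ∩ Metric.ball (t' : ℂ) δ) :=
          (convex_ball _ _).inter (convex_ball _ _)
        refine D.eqOn_of_eqOn (U := S ∩ (Metric.ball (t : ℂ) δ ∩ Metric.ball (t' : ℂ) δ))
          hconv.isPreconnected ((hQ t t.2).mono inter_subset_left)
          ((hQ t' t'.2).mono inter_subset_right) (hSo.inter hopen) ⟨y, hy1, hy2, hy1⟩ ?_
        intro s hs
        exact (hQe t t.2 ⟨hs.1, hs.2.1⟩).trans (hQe t' t'.2 ⟨hs.1, hs.2.2⟩).symm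
      · intro s hs
        exact absurd ⟨s, hs⟩ hne'
  obtain ⟨F, hF, hFe⟩ := D.glue hT hH hHH
  refine ⟨δ, hδ, F, ?_, ?_⟩
  · refine hF.mono ?_
    rintro s (hs | hs)
    · exact mem_iUnion.2 ⟨none, hs⟩
    · obtain ⟨t, ht⟩ := mem_iUnion.1 hs
      obtain ⟨htK, hst⟩ := mem_iUnion.1 ht
      exact mem_iUnion.2 ⟨some ⟨t, htK⟩, hst⟩
  · exact hFe none

end

end Vale.Agent.P267.H217
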