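import Mathlib
import Vale.Agent.P267.H217.Dev

/-!
# P267 / GE-LEAF (helper217), part 2: the no-exit lemma and the sweep
-/

open scoped Topology
open Set Filter

namespace Vale.Agent.P267.H217

noncomputable section

/-! ### the no-exit lemma -/

/-- one sided growth of a strictly convex function -/
lemma convex_growth {f : ℝ → ℝ} {c σ : ℝ} (hσ : 0 < σ)
    (hd : ∀ s ∈ Ico 0 σ, ContDiffAt ℝ 2 f s) (h2 : ∀ s ∈ Ico 0 σ, c ≤ deriv (deriv f) s)
    (h0 : 0 ≤ deriv f 0) : ∀ s ∈ Ico 0 σ, f 0 + c * s ^ 2 / 2 ≤ f s := by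
  have hd1 : ∀ s ∈ Ico 0 σ, DifferentiableAt ℝ f s := fun s hs =>
    (hd s hs).differentiableAt (by norm_num)
  have hd2 : ∀ s ∈ Ico 0 σ, DifferentiableAt ℝ (deriv f) s := fun s hs =>
    ((hd s hs).derivWithin (m := 1) (by norm_num)).differentiableAt (by norm_num)
  have m1 : MonotoneOn (fun s => deriv f s - c * s) (Ico 0 σ) := by
    apply monotoneOn_of_deriv_nonneg (convex_Ico 0 σ)
    · intro s hs
      exact ((hd2 s hs).sub (by fun_prop)).continuousAt.continuousWithinAt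
    · intro s hs
      rw [interior_Ico] at hs
      exact ((hd2 s ⟨hs.1.le, hs.2⟩).sub (by fun_prop)).differentiableWithinAt
    · intro s hs
      rw [interior_Ico] at hs
      have hs' : s ∈ Ico 0 σ := ⟨hs.1.le, hs.2⟩
      have : HasDerivAt (fun s => deriv f s - c * s) (deriv (deriv f) s - c * 1) s :=
        (hd2 s hs').hasDerivAt.sub ((hasDerivAt_id s).const_mul c)
      rw [this.deriv]
      linarith [h2 s hs']
  have hpos : ∀ s ∈ Ico 0 σ, 0 ≤ deriv f s - c * s := by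
    intro s hs
    have := m1 ⟨le_refl 0, hσ⟩ hs hs.1
    simp only [mul_zero, sub_zero] at this
    linarith
  have m2 : MonotoneOn (fun s => f s - c * s ^ 2 / 2) (Ico 0 σ) := by
    apply monotoneOn_of_deriv_nonneg (convex_Ico 0 σ)
    · intro s hs
      exact ((hd1 s hs).sub (by fun_prop)).continuousAt.continuousWithinAt
    · intro s hs
      rw [interior_Ico] at hs
      exact ((hd1 s ⟨hs.1.le, hs.2⟩).sub (by fun_prop)).differentiableWithinAt
    · intro s hs
      rw [interior_Ico] at hs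
      have hs' : s ∈ Ico 0 σ := ⟨hs.1.le, hs.2⟩
      have h3 : HasDerivAt (fun s : ℝ => c * s ^ 2 / 2) (c * s) s := by
        have := (((hasDerivAt_pow 2 s).const_mul c).div_const 2)
        have e : c * ((2 : ℕ) * s ^ (2 - 1)) / 2 = c * s := by
          simp only [Nat.cast_ofNat, Nat.add_one_sub_one, pow_one]
          ring
        rw [e] at this
        exact this
      have : HasDerivAt (fun s => f s - c * s ^ 2 / 2) (deriv f s - c * s) s :=
        (hd1 s hs').hasDerivAt.sub h3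
      rw [this.deriv]
      exact hpos s hs'
  intro s hs
  have := m2 ⟨le_refl 0, hσ⟩ hs hs.1
  simp only at this
  nlinarith

/-- The exhaustion function of the leaf. -/
structure Edge {X : Type*} [TopologicalSpace X] (D : DevSys X) where
  q : X → ℝ
  Q : ℝ
  Q₀ : ℝ
  c : ℝ
  hQ : Q₀ < Q
  hc : 0 < c
  lt : ∀ {Φ : ℂ → X} {t : ℂ}, D.G Φ t → q (Φ t) < Q
  cont : ∀ {Φ : ℂ → X} {t : ℂ}, D.G Φ t → ContinuousAt (fun s => q (Φ s)) t
  smooth : ∀ {Φ : ℂ → X} {t : ℂ}, D.G Φ t → Q₀ < q (Φ t) → ContDiffAt ℝ 2 (fun s => q (Φ s)) t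
  cvx : ∀ {Φ : ℂ → X} {t e : ℂ}, D.G Φ t → Q₀ < q (Φ t) → ‖e‖ = 1 →
    c ≤ deriv (deriv (fun s : ℝ => q (Φ (t + s * e)))) 0

variable {X : Type*} [TopologicalSpace X] {D : DevSys X} (E : Edge D)

lemma Edge.no_exit_aux {Φ : ℂ → X} {t e : ℂ} {ρ : ℝ} (he : ‖e‖ = 1) (hρ : 0 < ρ)
    (hΦ : ∀ s ∈ Icc 0 ρ, D.G Φ (t + s * e)) (hq : E.Q₀ < E.q (Φ t))
    (h0 : 0 ≤ deriv (fun s : ℝ => E.q (Φ (t + s * e))) 0) :
    E.q (Φ t) + E.c * ρ ^ 2 / 2 ≤ E.Q := by
  set f : ℝ → ℝ := fun s => E.q (Φ (t + s * e)) with hf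
  have hf0 : f 0 = E.q (Φ t) := by simp [hf]
  have hcontf : ∀ s ∈ Icc 0 ρ, ContinuousAt f s := by
    intro s hs
    have h1 : ContinuousAt (fun s : ℝ => t + s * e) s := by fun_prop
    exact ContinuousAt.comp (f := fun s : ℝ => t + s * e) (g := fun w => E.q (Φ w))
      (E.cont (hΦ s hs)) h1
  have hsm : ∀ s ∈ Icc 0 ρ, E.Q₀ < f s → ContDiffAt ℝ 2 f s := by
    intro s hs h
    have h1 : ContDiffAt ℝ 2 (fun s : ℝ => t + s * e) s := by
      apply ContDiffAt.add contDiffAt_const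
      exact (Complex.ofRealCLM.contDiff.contDiffAt).mul contDiffAt_const
    exact ContDiffAt.comp (f := fun s : ℝ => t + s * e) (g := fun w => E.q (Φ w)) s
      (E.smooth (hΦ s hs) h) h1
  have hcv : ∀ s ∈ Icc 0 ρ, E.Q₀ < f s → E.c ≤ deriv (deriv f) s := by
    intro s hs h
    have h1 := E.cvx (hΦ s hs) h he
    have h2 : (fun r : ℝ => E.q (Φ (t + s * e + r * e))) = fun r : ℝ => f (r + s) := by
      funext r
      simp only [hf]
      congr 2
      push_cast
      ring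
    rw [h2] at h1
    have h3 : deriv (fun r : ℝ => f (r + s)) = fun r => deriv f (r + s) := by
      funext r
      exact deriv_comp_add_const f s r
    rw [h3] at h1
    have h4 : deriv (fun r => deriv f (r + s)) 0 = deriv (deriv f) (0 + s) :=
      deriv_comp_add_const (deriv f) s 0
    rw [h4, zero_add] at h1
    exact h1
  -- `f > Q₀` on `[0,ρ]`
  have hgt : ∀ s ∈ Icc 0 ρ, E.Q₀ < f s := by
    by_contra hcon
    push Not at hcon
    obtain ⟨s₁, hs₁, hs₁'⟩ := hcon
    set B : Set ℝ := {s | s ∈ Icc 0 ρ ∧ f s ≤ E.Q₀} with hB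
    have hBc : IsClosed B := by
      have hcont : ContinuousOn f (Icc 0 ρ) := fun s hs => (hcontf s hs).continuousWithinAt
      exact hcont.preimage_isClosed_of_isClosed isClosed_Icc isClosed_Iic
    have hBne : B.Nonempty := ⟨s₁, hs₁, hs₁'⟩
    have hBbd : BddBelow B := ⟨0, fun s hs => hs.1.1⟩
    set σ := sInf B with hσ
    have hσB : σ ∈ B := hBc.csInf_mem hBne hBbd
    have hσ0 : 0 < σ := by
      rcases lt_or_eq_of_le hσB.1.1 with h | h
      · exact h
      · exfalso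
        have := hσB.2
        rw [← h, hf0] at this
        linarith
    have hlt : ∀ s ∈ Ico 0 σ, E.Q₀ < f s := by
      intro s hs
      by_contra hle
      push Not at hle
      have : s ∈ B := ⟨⟨hs.1, hs.2.le.trans hσB.1.2⟩, hle⟩
      exact absurd (csInf_le hBbd this) (not_le.2 hs.2)
    have hIn : ∀ s ∈ Ico 0 σ, s ∈ Icc 0 ρ := fun s hs => ⟨hs.1, hs.2.le.trans hσB.1.2⟩
    have hg := convex_growth hσ0 (fun s hs => hsm s (hIn s hs) (hlt s hs))
      (fun s hs => hcv s (hIn s hs) (hlt s hs)) h0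
    have hlim : f 0 ≤ f σ := by
      have hne : (𝓝[Ico 0 σ] σ).NeBot := by
        rw [← mem_closure_iff_nhdsWithin_neBot, closure_Ico hσ0.ne]
        exact ⟨hσ0.le, le_refl _⟩
      refine ge_of_tendsto ((hcontf σ hσB.1).tendsto.mono_left
        (nhdsWithin_le_nhds (s := Ico 0 σ))) ?_
      filter_upwards [self_mem_nhdsWithin] with s hs
      have := hg s hs
      nlinarith [E.hc, sq_nonneg s, mul_nonneg E.hc.le (sq_nonneg s)]
    have := hσB.2
    rw [hf0] at hlim
    linarith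
  -- growth on `[0,ρ]`
  have hg := convex_growth hρ (fun s hs => hsm s ⟨hs.1, hs.2.le⟩ (hgt s ⟨hs.1, hs.2.le⟩))
    (fun s hs => hcv s ⟨hs.1, hs.2.le⟩ (hgt s ⟨hs.1, hs.2.le⟩)) h0
  have hlim : f 0 + E.c * ρ ^ 2 / 2 ≤ f ρ := by
    have hne : (𝓝[Ico 0 ρ] ρ).NeBot := by
      rw [← mem_closure_iff_nhdsWithin_neBot, closure_Ico hρ.ne]
      exact ⟨hρ.le, le_refl _⟩
    have hl : Tendsto (fun s : ℝ => f 0 + E.c * s ^ 2 / 2) (𝓝[Ico 0 ρ] ρ)
        (𝓝 (f 0 + E.c * ρ ^ 2 / 2)) := by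
      have : Continuous fun s : ℝ => f 0 + E.c * s ^ 2 / 2 := by fun_prop
      exact this.continuousAt.tendsto.mono_left nhdsWithin_le_nhds
    refine le_of_tendsto_of_tendsto hl ((hcontf ρ ⟨hρ.le, le_refl _⟩).tendsto.mono_left
      (nhdsWithin_le_nhds (s := Ico 0 ρ))) ?_
    filter_upwards [self_mem_nhdsWithin] with s hs
    exact hg s hs
  have := (E.lt (hΦ ρ ⟨hρ.le, le_refl _⟩)).le
  rw [hf0] at hlim
  exact hlim.trans this

/-- **No-exit lemma.** -/
theorem Edge.no_exit {Φ : ℂ → X} {t e : ℂ} {ρ : ℝ} (he : ‖e‖ = 1) (hρ : 0 < ρ)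
    (hΦ : ∀ s ∈ Icc (-ρ) ρ, D.G Φ (t + s * e)) :
    E.q (Φ t) ≤ max E.Q₀ (E.Q - E.c * ρ ^ 2 / 2) := by
  by_cases hq : E.Q₀ < E.q (Φ t)
  · apply le_max_of_le_right
    rcases le_total 0 (deriv (fun s : ℝ => E.q (Φ (t + s * e))) 0) with h0 | h0
    · have := E.no_exit_aux he hρ (fun s hs => hΦ s ⟨by linarith [hs.1], hs.2⟩) hq h0
      linarith
    · have he' : ‖-e‖ = 1 := by rwa [norm_neg]
      have h1 : 0 ≤ deriv (fun s : ℝ => E.q (Φ (t + s * -e))) 0 := by
        have : (fun s : ℝ => E.q (Φ (t + s * -e))) =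
            fun s => (fun s : ℝ => E.q (Φ (t + s * e))) (-s) := by
          funext s
          simp
        rw [this]
        have h2 := deriv_comp_neg (f := fun s : ℝ => E.q (Φ (t + s * e))) (x := (0 : ℝ))
        rw [h2, neg_zero]
        linarith
      have := E.no_exit_aux he' hρ (fun s hs => by
        have := hΦ (-s) ⟨by linarith [hs.2], by linarith [hs.1]⟩
        convert this using 2
        push_cast
        ring) hq h1
      linarith
  · exact le_max_of_le_left (not_lt.1 hq)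

end

end Vale.Agent.P267.H217
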