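import Mathlib
import Vale.Agent.P267.H217.Sweep

/-!
# P267 / GE-LEAF (helper217), part 3: the sweep
-/

open scoped Topology
open Set Filter

namespace Vale.Agent.P267.H217

noncomputable section

/-- half disc `{|w| < R, Re w > lam}` -/
def half (lam R : ℝ) : Set ℂ := Metric.ball (0 : ℂ) R ∩ {w | lam < w.re}

lemma mem_half {lam R : ℝ} {w : ℂ} : w ∈ half lam R ↔ ‖w‖ < R ∧ lam < w.re := by
  simp [half]

lemma isOpen_half (lam R : ℝ) : IsOpen (half lam R) :=
  Metric.isOpen_ball.inter (isOpen_lt continuous_const Complex.continuous_re)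

lemma convex_half (lam R : ℝ) : Convex ℝ (half lam R) := by
  apply (convex_ball _ _).inter
  have h : IsLinearMap ℝ (fun w : ℂ => w.re) :=
    ⟨fun a b => by simp, fun c a => by simp⟩
  exact convex_halfSpace_gt h lam

/-- `{R1 < |w| < R2, Re w > lam}` -/
def sect (lam R₁ R₂ : ℝ) : Set ℂ := {w | R₁ < ‖w‖ ∧ ‖w‖ < R₂ ∧ lam < w.re}

lemma isOpen_sect (lam R₁ R₂ : ℝ) : IsOpen (sect lam R₁ R₂) := by
  have h1 : IsOpen {w : ℂ | R₁ < ‖w‖} := isOpen_lt continuous_const continuous_norm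
  have h2 : IsOpen {w : ℂ | ‖w‖ < R₂} := isOpen_lt continuous_norm continuous_const
  have h3 : IsOpen {w : ℂ | lam < w.re} := isOpen_lt continuous_const Complex.continuous_re
  exact h1.inter (h2.inter h3)

lemma isPreconnected_sect {lam R₁ R₂ : ℝ} (hR : 0 ≤ R₁) : IsPreconnected (sect lam R₁ R₂) := by
  rcases (sect lam R₁ R₂).eq_empty_or_nonempty with h | ⟨w₀, hw₀⟩
  · rw [h]; exact isPreconnected_empty
  -- the base point `‖w₀‖`
  have hseg : ∀ a b : ℝ, (max R₁ lam < a ∧ a < R₂) → (max R₁ lam < b ∧ b < R₂) →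
      segment ℝ (a : ℂ) (b : ℂ) ⊆ sect lam R₁ R₂ := by
    intro a b ha hb z hz
    obtain ⟨x, y, hx, hy, hxy, rfl⟩ := hz
    have h1 : max R₁ lam < x * a + y * b := by
      have : max R₁ lam = x * max R₁ lam + y * max R₁ lam := by rw [← add_mul, hxy, one_mul]
      rcases eq_or_lt_of_le hx with h | h
      · have : y = 1 := by linarith
        rw [← h, this]; simpa using hb.1
      · nlinarith [ha.1, hb.1]
    have h2 : x * a + y * b < R₂ := by
      have : R₂ = x * R₂ + y * R₂ := by rw [← add_mul, hxy, one_mul]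
      rcases eq_or_lt_of_le hx with h | h
      · have : y = 1 := by linarith
        rw [← h, this]; simpa using hb.2
      · nlinarith [ha.2, hb.2]
    have e : x • (a : ℂ) + y • (b : ℂ) = ((x * a + y * b : ℝ) : ℂ) := by
      simp
    rw [e]
    have hpos : 0 ≤ x * a + y * b := (hR.trans (le_max_left R₁ lam)).trans h1.le
    refine ⟨?_, ?_, ?_⟩
    · rw [Complex.norm_real, Real.norm_of_nonneg hpos]
      exact (le_max_left _ _).trans_lt h1
    · rw [Complex.norm_real, Real.norm_of_nonneg hpos]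
      exact h2
    · rw [Complex.ofReal_re]
      exact (le_max_right _ _).trans_lt h1
  have hnorm : ∀ w ∈ sect lam R₁ R₂, max R₁ lam < ‖w‖ ∧ ‖w‖ < R₂ := by
    intro w hw
    refine ⟨max_lt hw.1 (hw.2.2.trans_le ((le_abs_self _).trans (Complex.abs_re_le_norm w))), hw.2.1⟩
  refine isPreconnected_of_forall ((‖w₀‖ : ℝ) : ℂ) ?_
  intro w hw
  -- the arc
  set γ : ℝ → ℂ := fun s => ‖w‖ * Complex.exp ((s * w.arg : ℝ) * Complex.I) with hγ
  have hγc : Continuous γ := by fun_prop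
  have hγ1 : γ 1 = w := by
    simp only [hγ, one_mul]
    exact Complex.norm_mul_exp_arg_mul_I w
  have hγ0 : γ 0 = (‖w‖ : ℝ) := by simp [hγ]
  have harc : γ '' Icc 0 1 ⊆ sect lam R₁ R₂ := by
    rintro _ ⟨s, hs, rfl⟩
    have hn : ‖γ s‖ = ‖w‖ := by
      simp only [hγ, norm_mul, Complex.norm_real, norm_norm, Complex.norm_exp_ofReal_mul_I, mul_one]
    refine ⟨by rw [hn]; exact hw.1, by rw [hn]; exact hw.2.1, ?_⟩
    have hre : (γ s).re = ‖w‖ * Real.cos (s * w.arg) := by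
      simp only [hγ, Complex.re_ofReal_mul, Complex.exp_ofReal_mul_I_re]
    have hre1 : w.re = ‖w‖ * Real.cos w.arg := by
      rcases eq_or_ne w 0 with h | h
      · simp [h]
      · rw [Complex.cos_arg h]
        field_simp
    rw [hre]
    have hcos : Real.cos w.arg ≤ Real.cos (s * w.arg) := by
      rw [← Real.cos_abs w.arg, ← Real.cos_abs (s * w.arg)]
      apply Real.cos_le_cos_of_nonneg_of_le_pi (abs_nonneg _) (Complex.abs_arg_le_pi w)
      rw [abs_mul, abs_of_nonneg hs.1]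
      exact mul_le_of_le_one_left (abs_nonneg _) hs.2
    have := mul_le_mul_of_nonneg_left hcos (norm_nonneg w)
    linarith [hw.2.2]
  refine ⟨γ '' Icc 0 1 ∪ segment ℝ ((‖w‖ : ℝ) : ℂ) ((‖w₀‖ : ℝ) : ℂ), ?_, ?_, ?_, ?_⟩
  · rintro z (hz | hz)
    · exact harc hz
    · exact hseg _ _ (hnorm w hw) (hnorm w₀ hw₀) hz
  · exact Or.inr (right_mem_segment _ _ _)
  · exact Or.inl ⟨1, ⟨zero_le_one, le_refl 1⟩, hγ1⟩
  · refine IsPreconnected.union ((‖w‖ : ℝ) : ℂ) ⟨0, ⟨le_refl _, zero_le_one⟩, hγ0⟩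
      (left_mem_segment _ _ _) (isPreconnected_Icc.image _ hγc.continuousOn)
      (convex_segment _ _).isPreconnected

variable {X : Type*} [TopologicalSpace X] [T2Space X] {D : DevSys X} (E : Edge D)

/-- Extension axiom: a developing map on a convex open set extends across every boundary point near
which it does not approach the edge. -/
def Edge.Ext (E : Edge D) : Prop :=
  ∀ (Φ : ℂ → X) (S : Set ℂ) (t : ℂ), IsOpen S → Convex ℝ S → D.On Φ S → t ∈ closure S →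
    (∃ ρ > 0, ∃ r < E.Q, ∀ s ∈ S ∩ Metric.ball t ρ, E.q (Φ s) ≤ r) → D.ExtAt Φ S t

/-- extension of a developing map on a half disc, slightly across the chord -/
theorem Edge.step1 (hE : E.Ext) {Φ : ℂ → X} {lam R' R₂ : ℝ} (hR' : 0 < R') (hR : R' < R₂)
    (hlam : lam < R₂) (hlam' : -R₂ < lam)
    (hΦ : D.On Φ (half lam R₂)) :
    ∃ δ > 0, ∀ ε, 0 < ε → ε ≤ δ → ∃ F : ℂ → X, D.On F (half (lam - ε) R') ∧ EqOn F Φ (half lam R') := by
  set R'' := (R' + R₂) / 2 with hR''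
  have h1 : R' < R'' := by rw [hR'']; linarith
  have h2 : R'' < R₂ := by rw [hR'']; linarith
  set ρ := (R₂ - R'') / 2 with hρ
  have hρ0 : 0 < ρ := by rw [hρ]; linarith
  set S := half lam R₂ with hS
  set K := closure S ∩ Metric.closedBall (0 : ℂ) R'' with hK
  have hKc : IsCompact K := (isCompact_closedBall _ _).inter_left isClosed_closure
  have hSne : S.Nonempty := by
    refine ⟨(((lam + R₂) / 2 : ℝ) : ℂ), mem_half.2 ⟨?_, ?_⟩⟩
    · rw [Complex.norm_real, Real.norm_eq_abs, abs_lt]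
      constructor <;> linarith
    · rw [Complex.ofReal_re]; linarith
  have hext : ∀ t ∈ K, D.ExtAt Φ S t := by
    intro t ht
    refine hE Φ S t (isOpen_half _ _) (convex_half _ _) hΦ ht.1
      ⟨ρ, hρ0, max E.Q₀ (E.Q - E.c * ρ ^ 2 / 2), ?_, ?_⟩
    · apply max_lt E.hQ
      have := mul_pos E.hc (pow_pos hρ0 2)
      linarith
    · rintro s ⟨hs, hst⟩
      apply E.no_exit (e := Complex.I) (by simp) hρ0
      intro u hu
      apply hΦ
      rw [mem_half] at hs ⊢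
      have htn : ‖t‖ ≤ R'' := by simpa using ht.2
      have hsn : ‖s‖ < R'' + ρ := by
        have h3 : dist s t < ρ := hst
        rw [dist_eq_norm] at h3
        have := norm_sub_norm_le s t
        linarith
      refine ⟨?_, ?_⟩
      · have h4 : ‖s + u * Complex.I‖ ≤ ‖s‖ + ‖(u : ℂ) * Complex.I‖ := norm_add_le _ _
        have h5 : ‖(u : ℂ) * Complex.I‖ ≤ ρ := by
          rw [norm_mul, Complex.norm_I, mul_one, Complex.norm_real, Real.norm_eq_abs, abs_le]
          exact ⟨hu.1, hu.2⟩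
        have h6 : R'' + ρ + ρ = R₂ := by rw [hρ]; ring
        linarith
      · simpa using hs.2
  obtain ⟨δ₀, hδ₀, F, hF, hFe⟩ := D.extend (isOpen_half _ _) (convex_half _ _) hΦ hKc
    inter_subset_left hSne hext
  refine ⟨min (δ₀ / 2) (R'' - R'), lt_min (by positivity) (by linarith), ?_⟩
  intro ε hε hεle
  have he1 : ε < δ₀ := by have := hεle.trans (min_le_left _ _); linarith
  have he2 : R' + ε ≤ R'' := by have := hεle.trans (min_le_right _ _); linarith
  refine ⟨F, hF.mono ?_, fun w hw => hFe ?_⟩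
  · intro w hw
    rw [mem_half] at hw
    by_cases h : lam < w.re
    · exact Or.inl (mem_half.2 ⟨by linarith [hw.1], h⟩)
    · right
      have htn : ‖w + (ε : ℂ)‖ < R'' := by
        have := norm_add_le w (ε : ℂ)
        rw [Complex.norm_real, Real.norm_of_nonneg hε.le] at this
        linarith [hw.1]
      have htS : w + (ε : ℂ) ∈ S := by
        refine mem_half.2 ⟨by linarith, ?_⟩
        simp only [Complex.add_re, Complex.ofReal_re]
        linarith [hw.2]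
      refine mem_iUnion₂.2 ⟨w + ε, ⟨subset_closure htS, ?_⟩, ?_⟩
      · simpa using htn.le
      · rw [Metric.mem_ball, dist_eq_norm]
        have : w - (w + (ε : ℂ)) = -(ε : ℂ) := by ring
        rw [this, norm_neg, Complex.norm_real, Real.norm_of_nonneg hε.le]
        exact he1
  · rw [mem_half] at hw
    exact mem_half.2 ⟨by linarith [hw.1], hw.2⟩

/-- the statement proved by sweeping -/
def SweepAt (D : DevSys X) (Φ₀ : ℂ → X) (R₁ R₂ lam : ℝ) : Prop :=
  ∃ Φ : ℂ → X, D.On Φ (half lam R₂) ∧ EqOn Φ Φ₀ (sect lam R₁ R₂)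

lemma sect_subset_slit {lam R₁ R₂ : ℝ} (h : -R₁ ≤ lam) :
    sect lam R₁ R₂ ⊆ {w | R₁ < ‖w‖ ∧ ‖w‖ < R₂} ∩ Complex.slitPlane := by
  intro w hw
  refine ⟨⟨hw.1, hw.2.1⟩, ?_⟩
  rw [Complex.mem_slitPlane_iff]
  by_contra hcon
  push Not at hcon
  obtain ⟨h1, h2⟩ := hcon
  have : w = (w.re : ℂ) := by apply Complex.ext <;> simp [h2]
  have h3 : ‖w‖ = -w.re := by
    rw [this, Complex.norm_real, Real.norm_eq_abs, Complex.ofReal_re, abs_of_nonpos h1]
  have := hw.1
  have := hw.2.2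
  linarith

theorem Edge.step2 (hE : E.Ext) {Φ₀ : ℂ → X} {R₁ R₂ lam : ℝ} (hR1 : 0 < R₁) (hR : R₁ < R₂)
    (hl1 : -R₁ < lam) (hl2 : lam ≤ R₁)
    (h0 : D.On Φ₀ ({w | R₁ < ‖w‖ ∧ ‖w‖ < R₂} ∩ Complex.slitPlane))
    (h : SweepAt D Φ₀ R₁ R₂ lam) : ∃ lam' < lam, -R₁ ≤ lam' ∧ SweepAt D Φ₀ R₁ R₂ lam' := by
  obtain ⟨Φ, hΦ, hΦe⟩ := h
  set R' := (R₁ + R₂) / 2 with hR'
  have h1 : R₁ < R' := by rw [hR']; linarith
  have h2 : R' < R₂ := by rw [hR']; linarith
  obtain ⟨δ, hδ, hstep⟩ := E.step1 hE (by linarith : 0 < R') h2 (by linarith) (by linarith) hΦ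
  set ε := min δ (lam + R₁) with hε
  have hε0 : 0 < ε := lt_min hδ (by linarith)
  obtain ⟨F, hF, hFe⟩ := hstep ε hε0 (min_le_left _ _)
  have hlow : -R₁ ≤ lam - ε := by
    have := min_le_right δ (lam + R₁)
    rw [← hε] at this
    linarith
  refine ⟨lam - ε, by linarith, hlow, ?_⟩
  -- `F = Φ₀` on the annular sector
  have hA : EqOn F Φ₀ (sect (lam - ε) R₁ R') := by
    refine D.eqOn_of_eqOn (U := sect lam R₁ R') (isPreconnected_sect hR1.le)
      (hF.mono ?_) (h0.mono ?_) (isOpen_sect _ _ _) ?_ ?_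
    · intro w hw; exact mem_half.2 ⟨hw.2.1, hw.2.2⟩
    · intro w hw
      exact sect_subset_slit hlow ⟨hw.1, hw.2.1.trans h2, hw.2.2⟩
    · have hx1 : 0 ≤ (R₁ + R') / 2 := by linarith
      refine ⟨(((R₁ + R') / 2 : ℝ) : ℂ), ⟨?_, ?_, ?_⟩, ⟨?_, ?_, ?_⟩⟩
      all_goals first
        | (rw [Complex.norm_real, Real.norm_of_nonneg hx1]; linarith)
        | (rw [Complex.ofReal_re]; linarith)
    · intro w hw
      rw [hFe (mem_half.2 ⟨hw.2.1, hw.2.2⟩)]
      exact hΦe ⟨hw.1, hw.2.1.trans h2, hw.2.2⟩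
  obtain ⟨G, hG, hGF, hG0⟩ := D.glue₂ (isOpen_half (lam - ε) R') (isOpen_sect (lam - ε) R₁ R₂) hF
    (h0.mono (sect_subset_slit hlow)) (by
      intro w hw
      exact hA ⟨hw.2.1, (mem_half.1 hw.1).1, hw.2.2.2⟩)
  refine ⟨G, hG.mono ?_, hG0⟩
  intro w hw
  rw [mem_half] at hw
  by_cases h3 : ‖w‖ < R'
  · exact Or.inl (mem_half.2 ⟨h3, hw.2⟩)
  · exact Or.inr ⟨by linarith [not_lt.1 h3], hw.1, hw.2⟩

/-- the sweep reaches `lam = -R₁` -/
theorem Edge.sweep (hE : E.Ext) {Φ₀ : ℂ → X} {R₁ R₂ : ℝ} (hR1 : 0 < R₁) (hR : R₁ < R₂)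
    (h0 : D.On Φ₀ ({w | R₁ < ‖w‖ ∧ ‖w‖ < R₂} ∩ Complex.slitPlane)) :
    SweepAt D Φ₀ R₁ R₂ (-R₁) := by
  classical
  set Λ : Set ℝ := {lam | -R₁ ≤ lam ∧ lam ≤ R₁ ∧ SweepAt D Φ₀ R₁ R₂ lam} with hΛ
  have hbase : R₁ ∈ Λ := by
    refine ⟨by linarith, le_refl _, Φ₀, h0.mono ?_, fun w _ => rfl⟩
    intro w hw
    rw [mem_half] at hw
    have : R₁ < ‖w‖ := hw.2.trans_le ((le_abs_self _).trans (Complex.abs_re_le_norm w))
    exact sect_subset_slit (by linarith : -R₁ ≤ R₁) ⟨this, hw.1, hw.2⟩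
  have hbdd : BddBelow Λ := ⟨-R₁, fun l hl => hl.1⟩
  set μ := sInf Λ with hμ
  have hμ1 : -R₁ ≤ μ := le_csInf ⟨_, hbase⟩ fun l hl => hl.1
  have hμ2 : μ ≤ R₁ := csInf_le hbdd hbase
  have hne : Nonempty X := ⟨Φ₀ 0⟩
  have hμS : SweepAt D Φ₀ R₁ R₂ μ := by
    -- all values in `Λ` above `μ`
    have hall : ∀ l : Λ, ∃ Φ : ℂ → X, D.On Φ (half l R₂) ∧ EqOn Φ Φ₀ (sect l R₁ R₂) :=
      fun l => l.2.2.2
    choose P hP hPe using hall
    obtain ⟨F, hF, hFe⟩ := D.glue (ι := Λ) (Φ := P) (S := fun l => half l R₂)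
      (fun l => isOpen_half _ _) hP (by
        intro l l'
        wlog hll : (l : ℝ) ≤ l' generalizing l l'
        · have := this l' l (le_of_not_ge hll)
          intro w hw
          exact (this ⟨hw.2, hw.1⟩).symm
        have hsub : half l' R₂ ⊆ half l R₂ := fun w hw => by
          rw [mem_half] at hw ⊢; exact ⟨hw.1, hll.trans_lt hw.2⟩
        have hEq : EqOn (P l) (P l') (half l' R₂) := by
          refine D.eqOn_of_eqOn (U := sect l' R₁ R₂) (convex_half _ _).isPreconnected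
            ((hP l).mono hsub) (hP l') (isOpen_sect _ _ _) ?_ ?_
          · have hx1 : 0 ≤ (R₁ + R₂) / 2 := by linarith
            have h3 := l'.2.2.1
            refine ⟨(((R₁ + R₂) / 2 : ℝ) : ℂ), mem_half.2 ⟨?_, ?_⟩, ⟨?_, ?_, ?_⟩⟩
            all_goals first
              | (rw [Complex.norm_real, Real.norm_of_nonneg hx1]; linarith)
              | (rw [Complex.ofReal_re]; linarith)
          · intro w hw
            rw [hPe l' hw]
            exact hPe l ⟨hw.1, hw.2.1, hll.trans_lt hw.2.2⟩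
        intro w hw
        exact hEq hw.2)
    -- `half μ R₂ ⊆ ⋃`, unless `μ = R₁ ∈ Λ`
    by_cases hmem : μ ∈ Λ
    · exact hmem.2.2
    · have hcov : ∀ w : ℂ, μ < w.re → ∃ l : Λ, (l : ℝ) < w.re := by
        intro w hw
        obtain ⟨l, hl, hlw⟩ := exists_lt_of_csInf_lt ⟨_, hbase⟩ hw
        exact ⟨⟨l, hl⟩, hlw⟩
      refine ⟨F, hF.mono ?_, ?_⟩
      · intro w hw
        rw [mem_half] at hw
        obtain ⟨l, hl⟩ := hcov w hw.2
        exact mem_iUnion.2 ⟨l, mem_half.2 ⟨hw.1, hl⟩⟩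
      · intro w hw
        obtain ⟨l, hl⟩ := hcov w hw.2.2
        rw [hFe l (mem_half.2 ⟨hw.2.1, hl⟩)]
        exact hPe l ⟨hw.1, hw.2.1, hl⟩
  by_contra hcon
  have hlt : -R₁ < μ := by
    rcases lt_or_eq_of_le hμ1 with h | h
    · exact h
    · rw [← h] at hμS; exact absurd hμS hcon
  obtain ⟨l', hl', hl1, hl2⟩ := E.step2 hE hR1 hR hlt hμ2 h0 hμS
  have : l' ∈ Λ := ⟨hl1, by linarith, hl2⟩
  exact absurd (csInf_le hbdd this) (not_le.2 hl')

end

end Vale.Agent.P267.H217
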