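import Mathlib
import Vale.Agent.P267.H217.Disc

/-!
# P267 / GE-LEAF (helper217), part 4: the disc
-/

open scoped Topology
open Set Filter

namespace Vale.Agent.P267.H217

noncomputable section

def ann (R₁ R₂ : ℝ) : Set ℂ := {w | R₁ < ‖w‖ ∧ ‖w‖ < R₂}

lemma isOpen_ann (R₁ R₂ : ℝ) : IsOpen (ann R₁ R₂) :=
  (isOpen_lt continuous_const continuous_norm).inter (isOpen_lt continuous_norm continuous_const)

/-- the lower left quarter of the annulus -/
def quarter (R₁ R₂ : ℝ) : Set ℂ := {w | R₁ < ‖w‖ ∧ ‖w‖ < R₂ ∧ w.re < 0 ∧ w.im < 0}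

lemma isPreconnected_quarter {R₁ R₂ : ℝ} (hR : 0 ≤ R₁) : IsPreconnected (quarter R₁ R₂) := by
  have h : quarter R₁ R₂ = (fun p : ℝ × ℝ => -((p.1 : ℂ) * Complex.exp (p.2 * Complex.I))) ''
      (Ioo R₁ R₂ ×ˢ Ioo 0 (Real.pi / 2)) := by
    ext w
    constructor
    · rintro ⟨h1, h2, h3, h4⟩
      refine ⟨(‖-w‖, (-w).arg), ⟨⟨by rwa [norm_neg], by rwa [norm_neg]⟩, ?_, ?_⟩, ?_⟩
      · have h5 : 0 ≤ (-w).arg := Complex.arg_nonneg_iff.2 (by simp; linarith)
        rcases lt_or_eq_of_le h5 with h | h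
        · exact h
        · exfalso
          have := (Complex.arg_eq_zero_iff.1 h.symm).2
          simp at this
          linarith
      · have := (Complex.abs_arg_lt_pi_div_two_iff (z := -w)).2 (Or.inl (by simp; linarith))
        exact (abs_lt.1 this).2
      · simp only
        rw [Complex.norm_mul_exp_arg_mul_I, neg_neg]
    · rintro ⟨⟨r, θ⟩, ⟨⟨hr1, hr2⟩, hθ1, hθ2⟩, rfl⟩
      have hr0 : 0 < r := hR.trans_lt hr1
      have hn : ‖-((r : ℂ) * Complex.exp (θ * Complex.I))‖ = r := by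
        rw [norm_neg, norm_mul, Complex.norm_exp_ofReal_mul_I, mul_one, Complex.norm_real,
          Real.norm_of_nonneg hr0.le]
      have hpi := Real.pi_pos
      refine ⟨by rw [hn]; exact hr1, by rw [hn]; exact hr2, ?_, ?_⟩
      · rw [Complex.neg_re, Complex.re_ofReal_mul, Complex.exp_ofReal_mul_I_re, neg_lt_zero]
        exact mul_pos hr0 (Real.cos_pos_of_mem_Ioo ⟨by simp only at hθ1; linarith, hθ2⟩)
      · rw [Complex.neg_im, Complex.im_ofReal_mul, Complex.exp_ofReal_mul_I_im, neg_lt_zero]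
        exact mul_pos hr0 (Real.sin_pos_of_pos_of_lt_pi hθ1 (by simp only at hθ2; linarith))
  rw [h]
  refine ((isPreconnected_Ioo).prod isPreconnected_Ioo).image _ ?_
  have : Continuous fun p : ℝ × ℝ => -((p.1 : ℂ) * Complex.exp (p.2 * Complex.I)) := by fun_prop
  exact this.continuousOn

variable {X : Type*} [TopologicalSpace X] [T2Space X] {D : DevSys X} (E : Edge D)

/-- **The disc theorem.**  A developing map on the slit annulus, compatible across the slit from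
above, is the restriction of a developing map on the whole disc. -/
theorem Edge.disc (hE : E.Ext) {Φ₀ ΦL : ℂ → X} {R₁ R₂ : ℝ} (hR1 : 0 < R₁) (hR : R₁ < R₂)
    (h0 : D.On Φ₀ (ann R₁ R₂ ∩ Complex.slitPlane))
    (hL : D.On ΦL (ann R₁ R₂ ∩ {w | w.re < 0}))
    (h0L : EqOn Φ₀ ΦL (ann R₁ R₂ ∩ {w | w.re < 0 ∧ 0 < w.im})) :
    ∃ Φ : ℂ → X, D.On Φ (Metric.ball 0 R₂) ∧ EqOn Φ Φ₀ (ann R₁ R₂ ∩ Complex.slitPlane) ∧
      EqOn Φ ΦL (ann R₁ R₂ ∩ {w | w.re < 0}) := by
  obtain ⟨Φ₁, hΦ1, hΦ1e⟩ := E.sweep hE hR1 hR h0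
  set R' := (R₁ + R₂) / 2 with hR'
  have h1 : R₁ < R' := by rw [hR']; linarith
  have h2 : R' < R₂ := by rw [hR']; linarith
  obtain ⟨ε, hε, hstep⟩ := E.step1 hE (by linarith : 0 < R') h2 (by linarith) (by linarith) hΦ1
  obtain ⟨F, hF, hFe⟩ := hstep ε hε (le_refl _)
  -- the two points
  set η := min ((R' - R₁) / 2) 1 with hη
  have hη0 : 0 < η := lt_min (by linarith) one_pos
  have hη1 : η < R' - R₁ := (min_le_left _ _).trans_lt (by linarith)
  -- a general point at height `y`, `|y| = η`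
  have hpt : ∀ y : ℝ, |y| = η → R₁ < ‖(⟨-R₁, y⟩ : ℂ)‖ ∧ ‖(⟨-R₁, y⟩ : ℂ)‖ < R' := by
    intro y hy
    constructor
    · have : R₁ ^ 2 < ‖(⟨-R₁, y⟩ : ℂ)‖ ^ 2 := by
        rw [← Complex.normSq_eq_norm_sq, Complex.normSq_apply]
        have : 0 < y * y := by
          have : 0 < |y| * |y| := by rw [hy]; exact mul_pos hη0 hη0
          rwa [abs_mul_abs_self] at this
        simp only; nlinarith
      exact lt_of_pow_lt_pow_left₀ 2 (norm_nonneg _) this
    · have : ‖(⟨-R₁, y⟩ : ℂ)‖ ≤ |(-R₁)| + |y| := Complex.norm_le_abs_re_add_abs_im _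
      rw [abs_neg, abs_of_pos hR1, hy] at this
      linarith
  -- small ball around it
  have hball : ∀ y : ℝ, |y| = η → ∃ r > 0, Metric.ball (⟨-R₁, y⟩ : ℂ) r ⊆
      {w | R₁ < ‖w‖ ∧ ‖w‖ < R' ∧ w.re < 0 ∧ -R₁ - ε < w.re ∧ 0 < w.im * y} := by
    intro y hy
    obtain ⟨hp1, hp2⟩ := hpt y hy
    have hop : IsOpen {w : ℂ | R₁ < ‖w‖ ∧ ‖w‖ < R' ∧ w.re < 0 ∧ -R₁ - ε < w.re ∧ 0 < w.im * y} := by
      have e1 : IsOpen {w : ℂ | R₁ < ‖w‖} := isOpen_lt continuous_const continuous_norm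
      have e2 : IsOpen {w : ℂ | ‖w‖ < R'} := isOpen_lt continuous_norm continuous_const
      have e3 : IsOpen {w : ℂ | w.re < 0} := isOpen_lt Complex.continuous_re continuous_const
      have e4 : IsOpen {w : ℂ | -R₁ - ε < w.re} := isOpen_lt continuous_const Complex.continuous_re
      have e5 : IsOpen {w : ℂ | 0 < w.im * y} :=
        isOpen_lt continuous_const (Complex.continuous_im.mul continuous_const)
      exact e1.inter (e2.inter (e3.inter (e4.inter e5)))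
    refine Metric.isOpen_iff.1 hop _ ⟨hp1, hp2, by simpa using hR1, by simp; linarith, ?_⟩
    have : 0 < |y| * |y| := by rw [hy]; exact mul_pos hη0 hη0
    rwa [abs_mul_abs_self] at this
  -- the left strip
  set W₁ : Set ℂ := {w | ‖w‖ < R' ∧ -R₁ - ε < w.re ∧ w.re < -R₁} with hW1
  have hW1c : Convex ℝ W₁ := by
    have h : IsLinearMap ℝ (fun w : ℂ => w.re) := ⟨fun a b => by simp, fun c a => by simp⟩
    have e1 := convex_ball (0 : ℂ) R'
    have e2 := convex_halfSpace_gt h (-R₁ - ε)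
    have e3 := convex_halfSpace_lt h (-R₁)
    have e : W₁ = Metric.ball 0 R' ∩ ({w : ℂ | -R₁ - ε < w.re} ∩ {w : ℂ | w.re < -R₁}) := by
      ext w; simp [hW1]
    rw [e]
    exact e1.inter (e2.inter e3)
  have hW1n : ∀ w ∈ W₁, R₁ < ‖w‖ := by
    intro w hw
    have := Complex.abs_re_le_norm w
    have h3 := neg_le_abs w.re
    linarith [hw.2.2]
  have hFL : EqOn F ΦL W₁ := by
    obtain ⟨r, hr, hB⟩ := hball η (abs_of_pos hη0)
    set B := Metric.ball (⟨-R₁, η⟩ : ℂ) r with hBdef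
    have hFB : D.On F B := hF.mono fun w hw => mem_half.2 ⟨(hB hw).2.1, (hB hw).2.2.2.1⟩
    have hLB : D.On ΦL B := hL.mono fun w hw =>
      ⟨⟨(hB hw).1, (hB hw).2.1.trans h2⟩, (hB hw).2.2.1⟩
    have hBe : EqOn F ΦL B := by
      refine D.eqOn_of_eqOn (U := B ∩ {w | -R₁ < w.re}) (convex_ball _ _).isPreconnected hFB hLB
        (Metric.isOpen_ball.inter (isOpen_lt continuous_const Complex.continuous_re)) ?_ ?_
      · refine ⟨⟨-R₁ + r / 2, η⟩, ?_, ?_, ?_⟩
        · rw [hBdef, Metric.mem_ball, Complex.dist_of_im_eq (by rfl), Real.dist_eq]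
          simp only [add_sub_cancel_left, abs_of_pos (half_pos hr)]
          linarith
        · rw [hBdef, Metric.mem_ball, Complex.dist_of_im_eq (by rfl), Real.dist_eq]
          simp only [add_sub_cancel_left, abs_of_pos (half_pos hr)]
          linarith
        · show -R₁ < -R₁ + r / 2
          linarith
      · rintro w ⟨hw, hw'⟩
        have hh := hB hw
        rw [hFe (mem_half.2 ⟨hh.2.1, hw'⟩), hΦ1e ⟨hh.1, hh.2.1.trans h2, hw'⟩]
        refine h0L ⟨⟨hh.1, hh.2.1.trans h2⟩, hh.2.2.1, ?_⟩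
        exact pos_of_mul_pos_left hh.2.2.2.2 hη0.le
    refine D.eqOn_of_eqOn (U := B) hW1c.isPreconnected
      (hF.mono fun w hw => mem_half.2 ⟨hw.1, hw.2.1⟩)
      (hL.mono fun w hw => ⟨⟨hW1n w hw, hw.1.trans h2⟩, by
        show w.re < 0
        linarith [hw.2.2]⟩) Metric.isOpen_ball ?_ hBe
    have hmem : (⟨-R₁ - r / 2, η⟩ : ℂ) ∈ B := by
      rw [hBdef, Metric.mem_ball, Complex.dist_of_im_eq (by rfl), Real.dist_eq]
      simp only [sub_sub_cancel_left, abs_neg, abs_of_pos (half_pos hr)]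
      linarith
    have hh := hB hmem
    exact ⟨⟨-R₁ - r / 2, η⟩, ⟨hh.2.1, hh.2.2.2.1, by show -R₁ - r / 2 < -R₁; linarith⟩, hmem⟩
  -- the lower left quarter
  have hLL : EqOn Φ₀ ΦL (quarter R₁ R₂) := by
    obtain ⟨r, hr, hB⟩ := hball (-η) (by rw [abs_neg, abs_of_pos hη0])
    set B := Metric.ball (⟨-R₁, -η⟩ : ℂ) r with hBdef
    have him : ∀ w ∈ B, w.im < 0 := by
      intro w hw
      have := (hB hw).2.2.2.2
      by_contra hcon
      push Not at hcon
      nlinarith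
    have hFB : D.On F B := hF.mono fun w hw => mem_half.2 ⟨(hB hw).2.1, (hB hw).2.2.2.1⟩
    have hLB : D.On ΦL B := hL.mono fun w hw =>
      ⟨⟨(hB hw).1, (hB hw).2.1.trans h2⟩, (hB hw).2.2.1⟩
    have h0B : D.On Φ₀ B := h0.mono fun w hw =>
      ⟨⟨(hB hw).1, (hB hw).2.1.trans h2⟩, Complex.mem_slitPlane_iff.2 (Or.inr (him w hw).ne)⟩
    have e1 : EqOn F Φ₀ B := by
      refine D.eqOn_of_eqOn (U := B ∩ {w | -R₁ < w.re}) (convex_ball _ _).isPreconnected hFB h0B
        (Metric.isOpen_ball.inter (isOpen_lt continuous_const Complex.continuous_re)) ?_ ?_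
      · refine ⟨⟨-R₁ + r / 2, -η⟩, ?_, ?_, ?_⟩
        · rw [hBdef, Metric.mem_ball, Complex.dist_of_im_eq (by rfl), Real.dist_eq]
          simp only [add_sub_cancel_left, abs_of_pos (half_pos hr)]
          linarith
        · rw [hBdef, Metric.mem_ball, Complex.dist_of_im_eq (by rfl), Real.dist_eq]
          simp only [add_sub_cancel_left, abs_of_pos (half_pos hr)]
          linarith
        · show -R₁ < -R₁ + r / 2
          linarith
      · rintro w ⟨hw, hw'⟩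
        have hh := hB hw
        rw [hFe (mem_half.2 ⟨hh.2.1, hw'⟩), hΦ1e ⟨hh.1, hh.2.1.trans h2, hw'⟩]
    have hmem : (⟨-R₁ - r / 2, -η⟩ : ℂ) ∈ B := by
      rw [hBdef, Metric.mem_ball, Complex.dist_of_im_eq (by rfl), Real.dist_eq]
      simp only [sub_sub_cancel_left, abs_neg, abs_of_pos (half_pos hr)]
      linarith
    have e2 : EqOn F ΦL B := by
      refine D.eqOn_of_eqOn (U := B ∩ {w | w.re < -R₁}) (convex_ball _ _).isPreconnected hFB hLB
        (Metric.isOpen_ball.inter (isOpen_lt Complex.continuous_re continuous_const)) ?_ ?_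
      · exact ⟨⟨-R₁ - r / 2, -η⟩, hmem, hmem, by show -R₁ - r / 2 < -R₁; linarith⟩
      · rintro w ⟨hw, hw'⟩
        have hh := hB hw
        exact hFL ⟨hh.2.1, hh.2.2.2.1, hw'⟩
    refine D.eqOn_of_eqOn (U := B) (isPreconnected_quarter hR1.le)
      (h0.mono fun w hw => ⟨⟨hw.1, hw.2.1⟩, Complex.mem_slitPlane_iff.2 (Or.inr hw.2.2.2.ne)⟩)
      (hL.mono fun w hw => ⟨⟨hw.1, hw.2.1⟩, hw.2.2.1⟩) Metric.isOpen_ball ?_ ?_
    · have hh := hB hmem
      exact ⟨⟨-R₁ - r / 2, -η⟩, ⟨hh.1, hh.2.1.trans h2, hh.2.2.1, him _ hmem⟩, hmem⟩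
    · intro w hw
      rw [← e1 hw, e2 hw]
  -- the annulus
  have hs0 : IsOpen (ann R₁ R₂ ∩ Complex.slitPlane) := (isOpen_ann _ _).inter Complex.isOpen_slitPlane
  have hsL : IsOpen (ann R₁ R₂ ∩ {w : ℂ | w.re < 0}) :=
    (isOpen_ann _ _).inter (isOpen_lt Complex.continuous_re continuous_const)
  obtain ⟨ΦA, hΦA, hA0, hAL⟩ := D.glue₂ hs0 hsL h0 hL (by
    rintro w ⟨⟨hw1, hw2⟩, ⟨_, hw3⟩⟩
    have hw3' : w.re < 0 := hw3
    rcases Complex.mem_slitPlane_iff.1 hw2 with h | h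
    · linarith
    · rcases lt_or_gt_of_ne h with h | h
      · exact hLL ⟨hw1.1, hw1.2, hw3', h⟩
      · exact h0L ⟨hw1, hw3', h⟩)
  have hΦA' : D.On ΦA (ann R₁ R₂) := hΦA.mono (by
    intro w hw
    by_cases h : w ∈ Complex.slitPlane
    · exact Or.inl ⟨hw, h⟩
    · right
      refine ⟨hw, ?_⟩
      rw [Complex.mem_slitPlane_iff] at h
      push Not at h
      rcases lt_or_eq_of_le h.1 with h' | h'
      · exact h'
      · exfalso
        have : w = 0 := Complex.ext h' h.2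
        have := hw.1
        simp_all
        linarith)
  -- glue with `Φ₁`
  obtain ⟨ΦB, hΦB, hB1, hBA⟩ := D.glue₂ (isOpen_half (-R₁) R₂) (isOpen_ann R₁ R₂) hΦ1 hΦA' (by
    rintro w ⟨hw1, hw2⟩
    have hs : w ∈ sect (-R₁) R₁ R₂ := ⟨hw2.1, hw2.2, (mem_half.1 hw1).2⟩
    rw [hΦ1e hs, hA0 (sect_subset_slit (le_refl _) hs)])
  -- glue with `F`
  have hov : EqOn ΦB F ((half (-R₁) R₂ ∪ ann R₁ R₂) ∩ half (-R₁ - ε) R') := by
    rintro w ⟨hw1, hw2⟩
    rw [mem_half] at hw2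
    rcases lt_trichotomy w.re (-R₁) with h | h | h
    · have hwW : w ∈ W₁ := ⟨hw2.1, hw2.2, h⟩
      have hwa : w ∈ ann R₁ R₂ := ⟨hW1n w hwW, hw2.1.trans h2⟩
      rw [hFL hwW, hBA hwa]
      exact hAL ⟨hwa, by show w.re < 0; linarith⟩
    · -- by continuity
      have hwB : D.G ΦB w := hΦB w hw1
      have hwF : D.G F w := hF w (mem_half.2 hw2)
      have hne : (𝓝[{z : ℂ | -R₁ < z.re}] w).NeBot := by
        rw [← mem_closure_iff_nhdsWithin_neBot, Metric.mem_closure_iff]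
        intro r hr
        refine ⟨w + (r / 2 : ℝ), ?_, ?_⟩
        · simp only [mem_ofPred_eq, Complex.add_re, Complex.ofReal_re, h]
          linarith
        · rw [dist_self_add_right, Complex.norm_real, Real.norm_of_nonneg (by positivity)]
          linarith
      have hcl : IsClosed {p : X × X | p.1 = p.2} := isClosed_eq continuous_fst continuous_snd
      have hlim : Tendsto (fun s => (ΦB s, F s)) (𝓝[{z : ℂ | -R₁ < z.re}] w) (𝓝 (ΦB w, F w)) :=
        (((D.cont hwB) : Tendsto _ _ _).prodMk_nhds (D.cont hwF)).mono_left nhdsWithin_le_nhds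
      have hnear : ∀ᶠ s in 𝓝 w, ‖s‖ < R' :=
        continuous_norm.continuousAt.eventually (Iio_mem_nhds hw2.1)
      refine hcl.mem_of_tendsto hlim ?_
      filter_upwards [self_mem_nhdsWithin, mem_nhdsWithin_of_mem_nhds hnear] with s hs hs'
      have hs1 : s ∈ half (-R₁) R' := mem_half.2 ⟨hs', hs⟩
      show ΦB s = F s
      rw [hFe hs1]
      exact hB1 (mem_half.2 ⟨hs'.trans h2, hs⟩)
    · rw [hFe (mem_half.2 ⟨hw2.1, h⟩)]
      exact hB1 (mem_half.2 ⟨hw2.1.trans h2, h⟩)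
  obtain ⟨Φ, hΦ, hΦB', hΦF⟩ := D.glue₂ ((isOpen_half (-R₁) R₂).union (isOpen_ann R₁ R₂))
    (isOpen_half (-R₁ - ε) R') hΦB hF hov
  refine ⟨Φ, hΦ.mono ?_, ?_, ?_⟩
  · intro w hw
    have hw' : ‖w‖ < R₂ := by simpa using hw
    by_cases h : R₁ < ‖w‖
    · exact Or.inl (Or.inr ⟨h, hw'⟩)
    · right
      have h3 : ‖w‖ ≤ R₁ := not_lt.1 h
      refine mem_half.2 ⟨by linarith, ?_⟩
      have := Complex.abs_re_le_norm w
      have h4 := neg_abs_le w.re
      linarith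
  · rintro w hw
    rw [hΦB' (Or.inr hw.1), hBA hw.1, hA0 hw]
  · rintro w hw
    rw [hΦB' (Or.inr hw.1), hBA hw.1, hAL hw]

end

end Vale.Agent.P267.H217
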