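import Mathlib
import Vale.Agent.P267.H217.Disc2

/-!
# P267 / GE-LEAF (helper217), part 5: injectivity of the developing discs
-/

open scoped Topology
open Set Filter

namespace Vale.Agent.P267.H217

noncomputable section

variable {X : Type*} [TopologicalSpace X] [T2Space X] {D : DevSys X} (E : Edge D)

/-- **Injectivity.**  Two developing discs of the same radius whose collars are injective and
disjoint (or equal) are disjoint (or equal, and injective). -/
theorem Edge.disc_inj {Φ Ψ : ℂ → X} {R₁ R₂ R₃ κ : ℝ} {same : Prop}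
    (hR1 : 0 < R₁) (hR : R₁ < R₂) (hR3 : R₁ ≤ R₃) (hR32 : R₃ < R₂)
    (hΦ : D.On Φ (Metric.ball 0 R₂)) (hΨ : D.On Ψ (Metric.ball 0 R₂))
    (hann : ∀ s ∈ ann R₁ R₂, ∀ s' ∈ ann R₁ R₂, Φ s = Ψ s' → same ∧ s = s')
    (hκ : E.Q₀ < κ) (hκ' : E.Q - E.c * (R₂ - R₁) ^ 2 / 8 < κ)
    (hout : ∀ s ∈ ann R₃ R₂, κ ≤ E.q (Ψ s))
    {s s' : ℂ} (hs : s ∈ Metric.ball (0 : ℂ) R₂) (hs' : s' ∈ Metric.ball (0 : ℂ) R₂)
    (h : Φ s = Ψ s') : same ∧ s = s' := by
  obtain ⟨ζ, hζ, hev⟩ := D.uniq (hΦ s hs) (hΨ s' hs') h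
  have hζ0 : ζ ≠ 0 := by intro h0; rw [h0, norm_zero] at hζ; exact zero_ne_one hζ
  set T : ℂ → ℂ := fun x => ζ * x + (s' - ζ * s) with hT
  set p : ℂ := s - ζ⁻¹ * s' with hp
  have hTn : ∀ x, ‖T x‖ = ‖x - p‖ := by
    intro x
    have : T x = ζ * (x - p) := by
      rw [hT, hp]
      field_simp
      ring
    rw [this, norm_mul, hζ, one_mul]
  -- the two maps on the lens
  set L : Set ℂ := Metric.ball (0 : ℂ) R₂ ∩ Metric.ball p R₂ with hL
  have hLc : Convex ℝ L := (convex_ball _ _).inter (convex_ball _ _)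
  have hTL : ∀ x ∈ L, T x ∈ Metric.ball (0 : ℂ) R₂ := by
    intro x hx
    have h2 : dist x p < R₂ := hx.2
    rw [mem_ball_zero_iff, hTn, ← dist_eq_norm]
    exact h2
  have hTc : Continuous T := by fun_prop
  have hΨT : D.On (fun x => Ψ (T x)) L := by
    intro x hx
    exact D.rot hζ (hΨ _ (hTL x hx))
  have hΦL : D.On Φ L := hΦ.mono inter_subset_left
  have hTs : T s = s' := by simp [hT]
  have hsL : s ∈ L := by
    refine ⟨hs, ?_⟩
    have h1 : ‖s - p‖ = ‖s'‖ := by rw [← hTn, hTs]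
    rw [Metric.mem_ball, dist_eq_norm, h1]
    simpa using hs'
  have hEq : EqOn Φ (fun x => Ψ (T x)) L := by
    refine D.eqOn_of_germ hLc.isPreconnected hΦL hΨT hsL ?_
    have c3 : Tendsto (fun x : ℂ => x - s) (𝓝 s) (𝓝 0) := by
      have : Continuous fun h : ℂ => h - s := by fun_prop
      simpa using this.tendsto s
    filter_upwards [c3.eventually hev] with x hx
    have e1 : s + (x - s) = x := by ring
    rw [e1] at hx
    rw [hx]
    congr 1
    simp only [hT]; ring
  -- Case 1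
  by_cases hcase : ∃ x ∈ L, R₁ < ‖x‖ ∧ R₁ < ‖T x‖
  · obtain ⟨x, hx, hx1, hx2⟩ := hcase
    have hfix : ∀ y ∈ L, R₁ < ‖y‖ → R₁ < ‖T y‖ → same ∧ y = T y := by
      intro y hy h1 h2
      refine hann y ⟨h1, by simpa using hy.1⟩ (T y) ⟨h2, by simpa using hTL y hy⟩ ?_
      exact hEq hy
    have hLo : IsOpen L := Metric.isOpen_ball.inter Metric.isOpen_ball
    have hnear : ∀ᶠ y in 𝓝 x, y ∈ L ∧ R₁ < ‖y‖ ∧ R₁ < ‖T y‖ := by
      refine (hLo.eventually_mem hx).and ?_
      refine (continuous_norm.continuousAt.eventually (Ioi_mem_nhds hx1)).and ?_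
      exact (hTc.norm.continuousAt.eventually (Ioi_mem_nhds hx2))
    obtain ⟨δ, hδ, hb⟩ := Metric.eventually_nhds_iff_ball.1 hnear
    -- a second point
    set y : ℂ := x + (δ / 2 : ℝ) with hy
    have hyb : y ∈ Metric.ball x δ := by
      rw [hy, mem_ball_iff_norm, add_sub_cancel_left, Complex.norm_real, Real.norm_of_nonneg
        (by positivity)]
      linarith
    have f1 := hfix x hx hx1 hx2
    have f2 := hfix y (hb y hyb).1 (hb y hyb).2.1 (hb y hyb).2.2
    have hζ1 : ζ = 1 := by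
      have e1 : x = ζ * x + (s' - ζ * s) := f1.2
      have e2 : y = ζ * y + (s' - ζ * s) := f2.2
      have e3 : (ζ - 1) * (y - x) = 0 := by linear_combination e1 - e2
      rcases mul_eq_zero.1 e3 with h | h
      · exact sub_eq_zero.1 h
      · exfalso
        rw [hy, add_sub_cancel_left] at h
        have := Complex.ofReal_eq_zero.1 h
        linarith
    refine ⟨f1.1, ?_⟩
    have e1 : x = ζ * x + (s' - ζ * s) := f1.2
    rw [hζ1] at e1
    linear_combination e1
  · exfalso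
    push Not at hcase
    -- `p ≠ 0`
    have hp0 : p ≠ 0 := by
      intro h0
      have hmem : (((R₁ + R₂) / 2 : ℝ) : ℂ) ∈ L := by
        have hx1 : 0 ≤ (R₁ + R₂) / 2 := by linarith
        rw [hL, h0]
        simp only [inter_self, mem_ball_zero_iff, Complex.norm_real, Real.norm_of_nonneg hx1]
        linarith
      have h1 : R₁ < ‖(((R₁ + R₂) / 2 : ℝ) : ℂ)‖ := by
        rw [Complex.norm_real, Real.norm_of_nonneg (by linarith)]
        linarith
      have h2 := hcase _ hmem h1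
      rw [hTn, h0, sub_zero] at h2
      linarith
    have hpn : 0 < ‖p‖ := norm_pos_iff.2 hp0
    have hp2 : ‖p‖ < 2 * R₂ := by
      have h1 : dist s p < R₂ := hsL.2
      have h2 : ‖s‖ < R₂ := by simpa using hs
      rw [dist_eq_norm] at h1
      have := norm_sub_norm_le p s
      have h3 : ‖p - s‖ = ‖s - p‖ := norm_sub_rev _ _
      linarith
    -- the point `x = p - ρ p/|p|`
    set ρ := (max R₃ (‖p‖ - R₂) + R₂) / 2 with hρ
    have hm : max R₃ (‖p‖ - R₂) < R₂ := max_lt hR32 (by linarith)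
    have hρ1 : max R₃ (‖p‖ - R₂) < ρ := by rw [hρ]; linarith
    have hρ2 : ρ < R₂ := by rw [hρ]; linarith
    have hρ3 : R₃ < ρ := (le_max_left _ _).trans_lt hρ1
    have hρ4 : ‖p‖ - R₂ < ρ := (le_max_right _ _).trans_lt hρ1
    have hρ0 : 0 < ρ := by linarith
    set x : ℂ := ((1 - ρ / ‖p‖ : ℝ) : ℂ) * p with hx
    have hxp : ‖x - p‖ = ρ := by
      have : x - p = ((-(ρ / ‖p‖) : ℝ) : ℂ) * p := by
        rw [hx]; push_cast; ring
      rw [this, norm_mul, Complex.norm_real, Real.norm_eq_abs, abs_neg, abs_of_pos (by positivity)]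
      field_simp
    have hxn : ‖x‖ = |‖p‖ - ρ| := by
      rw [hx, norm_mul, Complex.norm_real, Real.norm_eq_abs]
      have : ‖p‖ = |‖p‖| := (abs_of_pos hpn).symm
      rw [show |1 - ρ / ‖p‖| * ‖p‖ = |1 - ρ / ‖p‖| * |‖p‖| by rw [abs_of_pos hpn], ← abs_mul]
      congr 1
      field_simp
    have hxR : ‖x‖ < R₂ := by
      rw [hxn, abs_lt]
      constructor <;> linarith
    have hxL : x ∈ L := by
      refine ⟨by simpa using hxR, ?_⟩
      rw [Metric.mem_ball, dist_eq_norm, hxp]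
      exact hρ2
    have hx1 : ‖x‖ ≤ R₁ := by
      by_contra hcon
      push Not at hcon
      have := hcase x hxL hcon
      rw [hTn, hxp] at this
      linarith
    have hTx : T x ∈ ann R₃ R₂ := by
      refine ⟨?_, ?_⟩ <;> rw [hTn, hxp] <;> assumption
    have hq1 : κ ≤ E.q (Φ x) := by
      rw [hEq hxL]
      exact hout _ hTx
    have hq2 := E.no_exit (Φ := Φ) (t := x) (e := Complex.I) (ρ := (R₂ - R₁) / 2) (by simp)
      (by linarith) (by
        intro u hu
        apply hΦ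
        rw [mem_ball_zero_iff]
        have h4 : ‖x + u * Complex.I‖ ≤ ‖x‖ + ‖(u : ℂ) * Complex.I‖ := norm_add_le _ _
        have h5 : ‖(u : ℂ) * Complex.I‖ ≤ (R₂ - R₁) / 2 := by
          rw [norm_mul, Complex.norm_I, mul_one, Complex.norm_real, Real.norm_eq_abs, abs_le]
          exact ⟨hu.1, hu.2⟩
        linarith)
    have hq3 : max E.Q₀ (E.Q - E.c * ((R₂ - R₁) / 2) ^ 2 / 2) < κ := by
      apply max_lt hκ
      have : E.c * ((R₂ - R₁) / 2) ^ 2 / 2 = E.c * (R₂ - R₁) ^ 2 / 8 := by ring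
      rw [this]
      exact hκ'
    linarith

end

end Vale.Agent.P267.H217
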