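import Vale.Agent.P267.H714.Flow
import Mathlib.Analysis.Complex.Liouville

/-!
# The equation `T' = g (T)`, `g` close to `1` on an annulus: solutions close to the identity
-/

open Set Filter Metric
open scoped Topology

noncomputable section

namespace Vale.Agent.P267.H217

open Vale.Agent.P267.H714

/-- the annulus -/
def Ann (s : ℝ) : Set ℂ := {t | 11 / 20 * s < ‖t‖ ∧ ‖t‖ < 6}

theorem isOpen_Ann (s : ℝ) : IsOpen (Ann s) :=
  (isOpen_lt continuous_const continuous_norm).inter (isOpen_lt continuous_norm continuous_const)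

/-- solutions close to the identity on convex open sets -/
theorem ode_near_id {g : ℂ → ℂ} {s ε ρ : ℝ} (hs : 0 < s) (hs1 : s ≤ 1)
    (hg : DifferentiableOn ℂ g (Ann s))
    (hb : ∀ t ∈ Ann s, ‖g t - 1‖ ≤ ε) (hε : ε ≤ s / 100) {Q : Set ℂ} (hQo : IsOpen Q)
    (hQ : Convex ℝ Q) {z₀ : ℂ} (hz₀ : z₀ ∈ Q) (hρ : ∀ z ∈ Q, ‖z - z₀‖ ≤ ρ) (hρ' : ρ ≤ 25 / 4)
    (hQs : ∀ z ∈ Q, 17 / 20 * s ≤ ‖z‖ ∧ ‖z‖ ≤ 11 / 2) {t₀ : ℂ} (ht₀ : ‖t₀ - z₀‖ ≤ s / 16) :
    ∃ T : ℂ → ℂ, T z₀ = t₀ ∧ ∀ z ∈ Q, T z ∈ Ann s ∧ ‖T z - z‖ ≤ ‖t₀ - z₀‖ + ε * ρ ∧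
      HasDerivAt T (g (T z)) z := by
  have hρ0 : 0 ≤ ρ := (norm_nonneg _).trans (hρ z₀ hz₀)
  -- points near `Q` are in the annulus
  have hann : ∀ z ∈ Q, ∀ x : ℂ, ‖x‖ ≤ s / 4 → z + x ∈ Ann s := by
    intro z hz x hx
    obtain ⟨h1, h2⟩ := hQs z hz
    refine ⟨?_, ?_⟩
    · have h3 : ‖z‖ ≤ ‖z + x‖ + ‖x‖ := by
        have := norm_sub_le (z + x) x
        simpa using this
      linarith
    · have h3 := norm_add_le z x
      linarith
  have hz1 : z₀ ∈ Ann s := by
    have := hann z₀ hz₀ 0 (by simp; positivity)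
    simpa using this
  have hε0 : 0 ≤ ε := (norm_nonneg _).trans (hb z₀ hz1)
  set S₀ : ℂ := t₀ - z₀ with hS₀
  have hball : ∀ x ∈ closedBall S₀ (s / 16), ‖x‖ ≤ s / 8 := by
    intro x hx
    rw [mem_closedBall, dist_eq_norm] at hx
    have h1 : ‖x‖ ≤ ‖x - S₀‖ + ‖S₀‖ := by simpa using norm_add_le (x - S₀) S₀
    linarith
  have hεs : ε * ρ ≤ s / 16 := by
    calc ε * ρ ≤ (s / 100) * (25 / 4) := mul_le_mul hε hρ' hρ0 (by positivity)
      _ = s / 16 := by ring
  obtain ⟨S, hS0, hSm, hSd⟩ := picard hQo hQ hz₀ hρ (x₀ := S₀) (r := s / 16) (M := ε)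
    (L := ε / (s / 8)) (by positivity) (by
      calc ε / (s / 8) * ρ = (ε * ρ) / (s / 8) := by ring
        _ ≤ (s / 16) / (s / 8) := by gcongr
        _ = 1 / 2 := by field_simp; norm_num) hε0 hεs
    (fun z x => g (z + x) - 1)
    (by
      intro T hT hTm
      refine (hg.comp (differentiableOn_id.add hT) ?_).sub_const 1
      intro z hz
      exact hann z hz _ ((hball _ (hTm hz)).trans (by linarith)))
    (by
      intro z hz x hx
      exact hb _ (hann z hz x ((hball x hx).trans (by linarith))))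
    (by
      intro z hz x hx y hy
      have hd : ∀ x ∈ closedBall S₀ (s / 16), HasDerivWithinAt (fun x => g (z + x) - 1)
          (deriv (fun x => g (z + x) - 1) x) (closedBall S₀ (s / 16)) x := by
        intro x hx
        have h1 : DifferentiableAt ℂ g (z + x) :=
          hg.differentiableAt ((isOpen_Ann s).mem_nhds (hann z hz x ((hball x hx).trans (by linarith))))
        have h2 : DifferentiableAt ℂ (fun x => g (z + x) - 1) x :=
          (h1.comp x ((differentiableAt_const z).add differentiableAt_id)).sub_const 1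
        exact h2.hasDerivAt.hasDerivWithinAt
      have hbd : ∀ x ∈ closedBall S₀ (s / 16), ‖deriv (fun x => g (z + x) - 1) x‖ ≤ ε / (s / 8) := by
        intro x hx
        have hsub : ∀ y ∈ closedBall x (s / 8), z + y ∈ Ann s := by
          intro y hy
          rw [mem_closedBall, dist_eq_norm] at hy
          refine hann z hz y ?_
          have h1 : ‖y‖ ≤ ‖y - x‖ + ‖x‖ := by simpa using norm_add_le (y - x) x
          have h2 := hball x hx
          linarith
        refine Complex.norm_deriv_le_of_forall_mem_sphere_norm_le (by positivity) ?_ ?_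
        · refine DifferentiableOn.diffContOnCl ?_
          rw [closure_ball x (by positivity)]
          intro y hy
          have h1 : DifferentiableAt ℂ g (z + y) :=
            hg.differentiableAt ((isOpen_Ann s).mem_nhds (hsub y hy))
          exact ((h1.comp y ((differentiableAt_const z).add differentiableAt_id)).sub_const
            1).differentiableWithinAt
        · intro y hy
          exact hb _ (hsub y (sphere_subset_closedBall hy))
      have h1 := (convex_closedBall S₀ (s / 16)).norm_image_sub_le_of_norm_hasDerivWithin_le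
        hd hbd hy hx
      exact h1)
  refine ⟨fun z => z + S z, by simp only [hS0, hS₀]; ring, fun z hz => ⟨?_, ?_, ?_⟩⟩
  · exact hann z hz _ ((hball _ (hSm hz)).trans (by linarith))
  · have h1 : ‖S z - S z₀‖ ≤ ε * ‖z - z₀‖ :=
      hQ.norm_image_sub_le_of_norm_hasDerivWithin_le (fun x hx => (hSd x hx).hasDerivWithinAt)
        (fun x hx => hb _ (hann x hx _ ((hball _ (hSm hx)).trans (by linarith)))) hz₀ hz
    have h2 : ‖S z‖ ≤ ‖S z - S z₀‖ + ‖S z₀‖ := by simpa using norm_add_le (S z - S z₀) (S z₀)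
    rw [hS0] at h2 h1
    have h3 : ε * ‖z - z₀‖ ≤ ε * ρ := mul_le_mul_of_nonneg_left (hρ z hz) hε0
    have h4 : z + S z - z = S z := by ring
    rw [h4]
    linarith
  · have h1 := (hasDerivAt_id z).add (hSd z hz)
    exact h1.congr_deriv (by ring)

end Vale.Agent.P267.H217
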